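import Vale.Agent.P340.Main

namespace Vale.Agent.Results.P340.A_full

open Vale.Agent.P340

universe u

theorem result (S : Type u) (P : Spec S) (h : WeaklyNormalizing P) : StronglyNormalizing P :=
  bgk S P h

end Vale.Agent.Results.P340.A_full
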